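import Vale.Agent.P224.R2.H60.EvenFA
import Vale.Agent.P224.R2.H925.LawT1
import Vale.Agent.P224.R2.H728.T0r
import Vale.Agent.P224.R2.H728.T0m
import Vale.Agent.P224.R2.H742.OddFA2

/-!
Final assembly for `m ≥ 17`: the far range and the output of the near law give the sharp volume
bound.
-/

namespace Vale.Agent.P224.R2.H176

open MeasureTheory Set Filter Function Real Module Matrix Vale.Agent.P224 Vale.Agent.P224.UE
  Vale.Agent.P224.R2.H820 Vale.Agent.P224.R2.H728 Vale.Agent.P224.R2.H582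
open Vale.Agent.P224.SM2 hiding ker
open scoped Topology RealInnerProductSpace ENNReal ContDiff Manifold

set_option linter.unusedSectionVars false

lemma lc_le_two {m : ℕ} (hm : 3 ≤ m) : leastClifford m ≤ 2 * sphereVol m := by
  have hS := (sphereVol_pos' m).le
  rcases Nat.even_or_odd' m with ⟨k, hk | hk⟩
  · rw [hk] at hm hS ⊢
    exact (even_bound (by omega) le_rfl).trans
      (mul_le_mul_of_nonneg_right (H60.evenRatio_le_two (by omega)) hS)
  · rw [RIG.leastClifford_eq (by omega), hk, show (2 * k + 1) / 2 = k by omega, clifford_odd]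
    rw [hk] at hS
    exact mul_le_mul_of_nonneg_right (H742.oddRatio_le_two (by omega)) hS

section

variable {V W M : Type*} [NormedAddCommGroup V] [InnerProductSpace ℝ V] [FiniteDimensional ℝ V]
  [NormedAddCommGroup W] [InnerProductSpace ℝ W] [FiniteDimensional ℝ W]
  [TopologicalSpace M] [ChartedSpace V M]
  [MeasurableSpace V] [BorelSpace V] [MeasurableSpace M] [BorelSpace M]
  [IsManifold 𝓘(ℝ, V) ∞ M] [CompactSpace M] [T2Space M] [ConnectedSpace M]
  [MeasurableSpace W] [BorelSpace W]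

/-- **The frame of the proof**: a contradiction for embedded hypersurfaces of smaller volume with a
unit normal of bounded integral is enough. -/
theorem frame (hm : 3 ≤ finrank ℝ V) (hW : finrank ℝ W = finrank ℝ V + 2)
    {F : M → W} (hF : SphImm V F) (hmin : ∀ x n, IsUnitNormal V F x n → meanCurv V F x n = 0)
    (hng : ¬ ∃ a : W, a ≠ 0 ∧ ∀ x, ⟪F x, a⟫ = 0)
    (hcase : ∀ N : M → W, ContMDiff 𝓘(ℝ, V) 𝓘(ℝ, W) ∞ N → (∀ x, IsUnitNormal V F x (N x)) →
      Injective F → ‖∫ x, N x ∂(volM V F)‖ ≤ sphereVol (finrank ℝ V) →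
      (volM V F).real univ < leastClifford (finrank ℝ V) →
      6 / 5 * sphereVol (finrank ℝ V) ≤ (volM V F).real univ → False) :
    ENNReal.ofReal (leastClifford (finrank ℝ V)) ≤ volM V F univ := by
  have hfin : IsFiniteMeasure (volM V F) := isFiniteMeasure_volM hF
  set A := (volM V F).real univ with hA
  set S := sphereVol (finrank ℝ V) with hS
  have hS0 : 0 < S := sphereVol_pos' _
  have hconv : ∀ c : ℝ, c ≤ A → ENNReal.ofReal c ≤ volM V F univ := fun c hc =>
    ENNReal.ofReal_le_of_le_toReal hc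
  refine hconv _ ?_
  by_cases hinj : Injective F
  swap
  · exact (lc_le_two hm).trans (TwoSide.two_le (by omega) hW hF hmin hinj)
  by_contra hlt
  rw [not_le] at hlt
  have h65 : 6 / 5 * S ≤ A := by
    have h1 := (PM.main_frac (by omega) hW hF hmin hng).1
    have h2 := ENNReal.toReal_mono (measure_ne_top _ _) h1
    rwa [ENNReal.toReal_ofReal (by positivity)] at h2
  obtain ⟨N, hNs, hN, htop⟩ := TP.exists_normal_le hW (by omega) hF hinj
  exact hcase N hNs hN hinj htop hlt h65

/-- the far range from the form with the mean normal -/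
lemma far_of_mean {F N : M → W} {ν : ℝ} (hA : 0 < (volM V F).real univ)
    (h : ∀ e : W, (volM V F).real univ • e = ∫ x, N x ∂(volM V F) → ‖e‖ < ν) :
    ‖∫ x, N x ∂(volM V F)‖ < ν * (volM V F).real univ := by
  set A := (volM V F).real univ with hAd
  have h1 := h (A⁻¹ • ∫ x, N x ∂(volM V F)) (smul_inv_smul₀ hA.ne' _)
  rw [norm_smul, Real.norm_eq_abs, abs_of_pos (inv_pos.2 hA), inv_mul_lt_iff₀ hA] at h1
  linarith

/-- the mean normal in coordinates -/
lemma sqrt_uu [Nonempty M] {F : M → W} (hF : SphImm V F)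
    {N : M → W} (hNs : ContMDiff 𝓘(ℝ, V) 𝓘(ℝ, W) ∞ N) (hA : 0 < (volM V F).real univ)
    {ι : Type*} [Fintype ι] [DecidableEq ι] (b : OrthonormalBasis ι ℝ W) :
    √(uu (nrm (volM V F)) (co b N)) = ‖∫ x, N x ∂(volM V F)‖ / (volM V F).real univ := by
  have hfin : IsFiniteMeasure (volM V F) := isFiniteMeasure_volM hF
  have hnz : NeZero (volM V F) := ⟨fun h => by
    rw [h] at hA
    simp at hA⟩
  have hcN : Continuous N := hNs.continuous
  have h1 := sum_m1_sq (μ := volM V F) b
    (hcN.integrable_of_hasCompactSupport (HasCompactSupport.of_compactSpace N))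
  set A := (volM V F).real univ with hAd
  have h2 : uu (nrm (volM V F)) (co b N) = (‖∫ x, N x ∂(volM V F)‖ / A) ^ 2 := by
    rw [div_pow, h1]
    unfold uu
    field_simp
  rw [h2, Real.sqrt_sq (by positivity)]

/-- the data of the near range -/
structure NearData (V : Type*) {W M : Type*} [NormedAddCommGroup V] [InnerProductSpace ℝ V]
    [FiniteDimensional ℝ V] [MeasurableSpace V] [BorelSpace V] [NormedAddCommGroup W]
    [InnerProductSpace ℝ W] [FiniteDimensional ℝ W] [TopologicalSpace M] [ChartedSpace V M]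
    [MeasurableSpace M]
    (F N : M → W) (b : OrthonormalBasis (Fin (finrank ℝ W)) ℝ W)
    (j : Fin (finrank ℝ W) → ℝ) (ν : ℝ) : Prop where
  smooth : ContMDiff 𝓘(ℝ, V) 𝓘(ℝ, W) ∞ N
  unit : ∀ x, IsUnitNormal V F x (N x)
  inj : Injective F
  t0 : T0Data (nrm (volM V F)) (finrank ℝ V) (co b F) (co b N)
  lsq : LSq (nrm (volM V F)) (Matrix.diagonal j) (co b F) (co b N)
  mean : √(uu (nrm (volM V F)) (co b N)) < ν

/-- the output of the near law: either the sharp law with a gap or a small box -/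
def NearOut (V : Type*) {W M : Type*} [NormedAddCommGroup V] [InnerProductSpace ℝ V]
    [FiniteDimensional ℝ V] [MeasurableSpace V] [BorelSpace V] [NormedAddCommGroup W]
    [InnerProductSpace ℝ W] [FiniteDimensional ℝ W] [TopologicalSpace M] [ChartedSpace V M]
    [MeasurableSpace M]
    (F N : M → W) (b : OrthonormalBasis (Fin (finrank ℝ W)) ℝ W)
    (j : Fin (finrank ℝ W) → ℝ) (gp h1 d1 : ℝ) : Prop :=
  2 * lamM (finrank ℝ V) * (sphereVol (finrank ℝ V) / (volM V F).real univ) + gp ≤ 1 ∨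
    (hh (nrm (volM V F)) (Matrix.diagonal j) (co b F) (co b N) ≤ h1 ∧
      √(fro (De (nrm (volM V F)) (co b F) (co b N))) ≤ d1)

/-- the frame with the data of the near range -/
theorem frame_near [Nonempty M] (hm : 3 ≤ finrank ℝ V) (hW : finrank ℝ W = finrank ℝ V + 2)
    {F : M → W} (hF : SphImm V F) (hmin : ∀ x n, IsUnitNormal V F x n → meanCurv V F x n = 0)
    (hng : ¬ ∃ a : W, a ≠ 0 ∧ ∀ x, ⟪F x, a⟫ = 0) {ν : ℝ}
    (hfar : ∀ N : M → W, ContMDiff 𝓘(ℝ, V) 𝓘(ℝ, W) ∞ N → (∀ x, IsUnitNormal V F x (N x)) →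
      ‖∫ x, N x ∂(volM V F)‖ ≤ sphereVol (finrank ℝ V) →
      (volM V F).real univ ≤ leastClifford (finrank ℝ V) →
      ‖∫ x, N x ∂(volM V F)‖ < ν * (volM V F).real univ)
    (hnear : ∀ (N : M → W) (b : OrthonormalBasis (Fin (finrank ℝ W)) ℝ W)
      (j : Fin (finrank ℝ W) → ℝ), NearData V F N b j ν →
      (volM V F).real univ < leastClifford (finrank ℝ V) → False) :
    ENNReal.ofReal (leastClifford (finrank ℝ V)) ≤ volM V F univ := by
  refine frame hm hW hF hmin hng fun N hNs hN hinj htop hlt h65 => ?_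
  have hS0 : 0 < sphereVol (finrank ℝ V) := sphereVol_pos' _
  have hA0 : 0 < (volM V F).real univ := by linarith
  obtain ⟨b, j, h0, hL⟩ := exists_eigen (by omega) hW hF hmin hNs hN
  have h1 := hfar N hNs hN htop hlt.le
  refine hnear N b j ⟨hNs, hN, hinj, h0, hL, ?_⟩ hlt
  rw [sqrt_uu hF hNs hA0 b, div_lt_iff₀ hA0]
  exact h1

/-- **Even dimension.** -/
theorem even_glue [Nonempty M] {k : ℕ} (hk : 2 ≤ k) (hV : finrank ℝ V = 2 * k)
    (hW : finrank ℝ W = finrank ℝ V + 2)
    {F : M → W} (hF : SphImm V F) (hmin : ∀ x n, IsUnitNormal V F x n → meanCurv V F x n = 0)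
    (hng : ¬ ∃ a : W, a ≠ 0 ∧ ∀ x, ⟪F x, a⟫ = 0) {ν : ℝ}
    (hfar : ∀ N : M → W, ContMDiff 𝓘(ℝ, V) 𝓘(ℝ, W) ∞ N → (∀ x, IsUnitNormal V F x (N x)) →
      ‖∫ x, N x ∂(volM V F)‖ ≤ sphereVol (finrank ℝ V) →
      (volM V F).real univ ≤ leastClifford (finrank ℝ V) →
      ‖∫ x, N x ∂(volM V F)‖ < ν * (volM V F).real univ)
    {h1 d1 : ℝ} (hh1 : h1 < 0)
    (hnear : ∀ (N : M → W) (b : OrthonormalBasis (Fin (finrank ℝ W)) ℝ W)
      (j : Fin (finrank ℝ W) → ℝ), NearData V F N b j ν → NearOut V F N b j 0 h1 d1) :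
    ENNReal.ofReal (leastClifford (finrank ℝ V)) ≤ volM V F univ := by
  refine frame_near (by omega) hW hF hmin hng hfar fun N b j hd hlt => ?_
  have hS0 : 0 < sphereVol (finrank ℝ V) := sphereVol_pos' _
  have hle : leastClifford (finrank ℝ V) ≤ evenRatio k * sphereVol (finrank ℝ V) := by
    rw [hV]
    exact even_bound (by omega) le_rfl
  rcases hnear N b j hd with h2 | h2
  · have h2l : 2 * lamM (finrank ℝ V) = evenRatio k := by
      rw [hV]
      exact two_lamM hk
    have hvpos : 0 < volM V F univ := volM_pos_of_isOpen hW hF isOpen_univ univ_nonempty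
    have hfin : IsFiniteMeasure (volM V F) := isFiniteMeasure_volM hF
    have hA0 : 0 < (volM V F).real univ := ENNReal.toReal_pos hvpos.ne' (measure_ne_top _ _)
    rw [h2l, add_zero, ← mul_div_assoc, div_le_one hA0] at h2
    linarith
  · have h3 := hd.t0.hh_nonneg (Matrix.diagonal j)
    linarith [h2.1]

/-- **Odd dimension**, outside of the small box: the gap. -/
theorem odd_glue [Nonempty M] {h : ℕ} (hh2 : 2 ≤ h) (hV : finrank ℝ V = 2 * h + 1)
    (hW : finrank ℝ W = finrank ℝ V + 2)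
    {F : M → W} (hF : SphImm V F) (hmin : ∀ x n, IsUnitNormal V F x n → meanCurv V F x n = 0)
    (hng : ¬ ∃ a : W, a ≠ 0 ∧ ∀ x, ⟪F x, a⟫ = 0) {ν : ℝ}
    (hfar : ∀ N : M → W, ContMDiff 𝓘(ℝ, V) 𝓘(ℝ, W) ∞ N → (∀ x, IsUnitNormal V F x (N x)) →
      ‖∫ x, N x ∂(volM V F)‖ ≤ sphereVol (finrank ℝ V) →
      (volM V F).real univ ≤ leastClifford (finrank ℝ V) →
      ‖∫ x, N x ∂(volM V F)‖ < ν * (volM V F).real univ)
    {gp h1 d1 : ℝ} (hgp : gp < 1)
    (hgap : (1 - gp) * oddRatio h ≤ 2 * lamM (finrank ℝ V))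
    (hnear : ∀ (N : M → W) (b : OrthonormalBasis (Fin (finrank ℝ W)) ℝ W)
      (j : Fin (finrank ℝ W) → ℝ), NearData V F N b j ν → NearOut V F N b j gp h1 d1)
    (hbox : ∀ (N : M → W) (b : OrthonormalBasis (Fin (finrank ℝ W)) ℝ W)
      (j : Fin (finrank ℝ W) → ℝ), NearData V F N b j ν →
      hh (nrm (volM V F)) (Matrix.diagonal j) (co b F) (co b N) ≤ h1 →
      √(fro (De (nrm (volM V F)) (co b F) (co b N))) ≤ d1 →
      leastClifford (finrank ℝ V) ≤ (volM V F).real univ) :
    ENNReal.ofReal (leastClifford (finrank ℝ V)) ≤ volM V F univ := by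
  refine frame_near (by omega) hW hF hmin hng hfar fun N b j hd hlt => ?_
  have hS0 : 0 < sphereVol (finrank ℝ V) := sphereVol_pos' _
  have hle : leastClifford (finrank ℝ V) = oddRatio h * sphereVol (finrank ℝ V) := by
    rw [RIG.leastClifford_eq (by omega), hV, ← clifford_odd]
    congr 1
    omega
  rcases hnear N b j hd with h2 | h2
  · have hvpos : 0 < volM V F univ := volM_pos_of_isOpen hW hF isOpen_univ univ_nonempty
    have hfin : IsFiniteMeasure (volM V F) := isFiniteMeasure_volM hF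
    have hA0 : 0 < (volM V F).real univ := ENNReal.toReal_pos hvpos.ne' (measure_ne_top _ _)
    have h3 : 2 * lamM (finrank ℝ V) * (sphereVol (finrank ℝ V) / (volM V F).real univ)
        ≤ 1 - gp := by linarith
    rw [← mul_div_assoc, div_le_iff₀ hA0] at h3
    have h4 := mul_le_mul_of_nonneg_right hgap hS0.le
    have h5 : 0 < 1 - gp := by linarith
    have h6 : (1 - gp) * (oddRatio h * sphereVol (finrank ℝ V))
        ≤ (1 - gp) * (volM V F).real univ := by linarith
    have h7 := le_of_mul_le_mul_left h6 h5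
    rw [hle] at hlt
    linarith
  · have := hbox N b j hd h2.1 h2.2
    linarith

end

end Vale.Agent.P224.R2.H176
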