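import Vale.Agent.P224.R2.H176.G.Glue0
import Vale.Agent.P224.R2.H577.Ent
import Vale.Agent.P224.R2.H577.Sharp

/-!
The even dimensions of a block: from the far range and the near range in the block form to the
sharp bound.
-/

namespace Vale.Agent.P224.R2.H176

open MeasureTheory Set Function Real Module Matrix Vale.Agent.P224 Vale.Agent.P224.FV
  Vale.Agent.P224.R2.H728 Vale.Agent.P224.R2.H582 Vale.Agent.P224.R2.H577
open Vale.Agent.P224.SM2 hiding ker
open scoped Topology RealInnerProductSpace ContDiff Manifold ENNReal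

set_option linter.unusedSectionVars false

/-- the far range of a hypersurface with the bound `ν` of the mean normal -/
def FarU (V : Type*) {W M : Type*} [NormedAddCommGroup V] [InnerProductSpace ℝ V]
    [FiniteDimensional ℝ V] [NormedAddCommGroup W] [InnerProductSpace ℝ W] [FiniteDimensional ℝ W]
    [TopologicalSpace M] [ChartedSpace V M] [MeasurableSpace V] [BorelSpace V]
    [MeasurableSpace M] (ν : ℝ) (F : M → W) : Prop :=
  ∀ N : M → W, ContMDiff 𝓘(ℝ, V) 𝓘(ℝ, W) ∞ N → (∀ x, IsUnitNormal V F x (N x)) →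
    ‖∫ x, N x ∂(volM V F)‖ ≤ sphereVol (finrank ℝ V) →
    (volM V F).real univ ≤ leastClifford (finrank ℝ V) →
    ‖∫ x, N x ∂(volM V F)‖ < ν * (volM V F).real univ

section

variable {V W M : Type*} [NormedAddCommGroup V] [InnerProductSpace ℝ V] [FiniteDimensional ℝ V]
  [NormedAddCommGroup W] [InnerProductSpace ℝ W] [FiniteDimensional ℝ W]
  [TopologicalSpace M] [ChartedSpace V M]
  [MeasurableSpace V] [BorelSpace V] [MeasurableSpace M] [BorelSpace M]
  [MeasurableSpace W] [BorelSpace W] [IsManifold 𝓘(ℝ, V) ∞ M]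
  [CompactSpace M] [T2Space M] [ConnectedSpace M]

/-- **an even dimension from the far range and the near range** -/
theorem even_of_near (hm4 : 4 ≤ finrank ℝ V) (hev : Even (finrank ℝ V))
    (hW : finrank ℝ W = finrank ℝ V + 2)
    {F : M → W} (hF : SphImm V F) (hmin : ∀ x n, IsUnitNormal V F x n → meanCurv V F x n = 0)
    (hng : ¬ ∃ a : W, a ≠ 0 ∧ ∀ x, ⟪F x, a⟫ = 0) {ν : ℝ} (hfar : FarU V ν F) {H D : ℕ → ℚ}
    (hnear : NearU V ν H D F) :
    ENNReal.ofReal (leastClifford (finrank ℝ V)) ≤ volM V F univ := by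
  obtain ⟨p, -, he, -, hN⟩ := hnear
  obtain ⟨hgp, hh1⟩ := he hev
  obtain ⟨k, hk⟩ := hev
  have hh1R : (p.h1 : ℝ) < 0 := by exact_mod_cast hh1
  refine even_glue (k := k) (by omega) (by omega) hW hF hmin hng hfar hh1R (d1 := p.d1)
    fun N b j hd => ?_
  have h := hN N b j hd
  rw [hgp, Rat.cast_zero] at h
  exact h

end

end Vale.Agent.P224.R2.H176
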