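import Vale.Agent.P224.R2.H176.G.BlkE
import Vale.Agent.P224.R2.H444.F36
import Vale.Agent.P224.R2.H577.N36
import Vale.Agent.P224.R2.H424.RelU36

/-!
**The sharp volume bound in the dimensions 36 and 38.**
-/

namespace Vale.Agent.P224.R2.H176

open MeasureTheory Set Function Real Module Matrix Vale.Agent.P224 Vale.Agent.P224.FV
  Vale.Agent.P224.R2.H577
open Vale.Agent.P224.R2.H424.Tls (relFX1 relU36)
open Vale.Agent.P224.R2.H535 (boxH boxD)
open scoped Topology RealInnerProductSpace ContDiff Manifold ENNReal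

set_option linter.unusedSectionVars false

section

variable {V W M : Type*} [NormedAddCommGroup V] [InnerProductSpace ℝ V] [FiniteDimensional ℝ V]
  [NormedAddCommGroup W] [InnerProductSpace ℝ W] [FiniteDimensional ℝ W]
  [TopologicalSpace M] [ChartedSpace V M]
  [MeasurableSpace V] [BorelSpace V] [MeasurableSpace M] [BorelSpace M]
  [MeasurableSpace W] [BorelSpace W] [IsManifold 𝓘(ℝ, V) ∞ M]
  [CompactSpace M] [T2Space M] [ConnectedSpace M]

/-- the relative tails in the dimensions from 36 to 39 -/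
lemma rels_36 (h1 : 36 ≤ finrank ℝ V) (h2 : finrank ℝ V ≤ 39) (hW : finrank ℝ W = finrank ℝ V + 2)
    {F : M → W} (hF : SphImm V F) (hmin : ∀ x n, IsUnitNormal V F x n → meanCurv V F x n = 0)
    {ν : ℝ} : H925.RelU (91 / 5) (61 / 5) V W M H179.E36.rels36 ν (finrank ℝ V) F := by
  obtain ⟨i, hi⟩ : ∃ i, finrank ℝ V = 36 + i := ⟨finrank ℝ V - 36, by omega⟩
  have hs : ∀ i < 4, relFX1 (36 + i) ≤ 1 / 50 ∧ relFX1 (36 + i) ≤ 3 / 100 := by decide +kernel
  obtain ⟨e1, e2⟩ := hs i (by omega)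
  refine relU_cons (relU36 h1 (by omega) hW hF hmin rfl ?_)
    (relU_cons (relU36 h1 (by omega) hW hF hmin rfl ?_) relU_nil)
  · rw [hi]
    exact e1
  · rw [hi]
    exact e2

/-- **The sharp volume bound in the dimensions 36 and 38.** -/
theorem even_36_38 (h1 : 36 ≤ finrank ℝ V) (h2 : finrank ℝ V ≤ 39) (hev : Even (finrank ℝ V))
    (hW : finrank ℝ W = finrank ℝ V + 2)
    {F : M → W} (hF : SphImm V F) (hmin : ∀ x n, IsUnitNormal V F x n → meanCurv V F x n = 0)
    (hng : ¬ ∃ a : W, a ≠ 0 ∧ ∀ x, ⟪F x, a⟫ = 0) :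
    ENNReal.ofReal (leastClifford (finrank ℝ V)) ≤ volM V F univ := by
  have hfar : FarU V ((3 / 100 : ℚ) : ℝ) F := by
    have h := H444.far_36 h1 hW hF hmin hng
    unfold FarU
    push_cast
    exact h
  exact even_of_near (by omega) hev hW hF hmin hng hfar
    (near_36_40 h1 (by omega) hW hF hmin (rels_36 h1 h2 hW hF hmin))

end

end Vale.Agent.P224.R2.H176
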