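import Vale.Agent.P224.R2.H176.G.Ev0
import Vale.Agent.P224.R2.H925.TbE
import Vale.Agent.P224.R2.H979.ThinEven
import Vale.Agent.P224.R2.H458.Thin34

/-!
**The sharp volume bound in the even dimensions from 18 to 34.**
-/

namespace Vale.Agent.P224.R2.H176

open MeasureTheory Set Function Real Module Vale.Agent.P224 Vale.Agent.P224.FV
  Vale.Agent.P224.R2.H925 Vale.Agent.P224.UE
open Vale.Agent.P224.SM2 hiding ker
open scoped Topology RealInnerProductSpace ContDiff Manifold ENNReal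

set_option linter.unusedSectionVars false

section

variable {V W M : Type*} [NormedAddCommGroup V] [InnerProductSpace ℝ V] [FiniteDimensional ℝ V]
  [NormedAddCommGroup W] [InnerProductSpace ℝ W] [FiniteDimensional ℝ W]
  [TopologicalSpace M] [ChartedSpace V M]
  [MeasurableSpace V] [BorelSpace V] [MeasurableSpace M] [BorelSpace M]
  [MeasurableSpace W] [BorelSpace W] [IsManifold 𝓘(ℝ, V) ∞ M]
  [CompactSpace M] [T2Space M] [ConnectedSpace M]

/-- the far range in dimension 34 -/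
theorem far34 (hV : finrank ℝ V = 34) (hW : finrank ℝ W = finrank ℝ V + 2)
    {F : M → W} (hF : SphImm V F) (hmin : ∀ x n, IsUnitNormal V F x n → meanCurv V F x n = 0)
    (hng : ¬ ∃ a : W, a ≠ 0 ∧ ∀ x, ⟪F x, a⟫ = 0)
    (N : M → W) (hNs : ContMDiff 𝓘(ℝ, V) 𝓘(ℝ, W) ∞ N) (hN : ∀ x, IsUnitNormal V F x (N x))
    (htop : ‖∫ x, N x ∂(volM V F)‖ ≤ sphereVol (finrank ℝ V))
    (hhi : (volM V F).real univ ≤ leastClifford (finrank ℝ V)) :
    ‖∫ x, N x ∂(volM V F)‖ < 1 / 50 * (volM V F).real univ := by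
  have hfin : IsFiniteMeasure (volM V F) := isFiniteMeasure_volM hF
  have hvpos : 0 < volM V F univ := volM_pos_of_isOpen hW hF isOpen_univ univ_nonempty
  have hA : 0 < (volM V F).real univ := ENNReal.toReal_pos hvpos.ne' (measure_ne_top _ _)
  exact far_of_mean hA fun e he => H458.thin34 hV hW hF hmin hng hNs hN htop he
    (hhi.trans (by rw [hV]; exact H458.lc34))

/-- **The sharp volume bound in the even dimensions from 18 to 34.** -/
theorem even_block {k : ℕ} (h1 : 9 ≤ k) (h2 : k ≤ 17) (hV : finrank ℝ V = 2 * k)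
    (hW : finrank ℝ W = finrank ℝ V + 2)
    {F : M → W} (hF : SphImm V F) (hmin : ∀ x n, IsUnitNormal V F x n → meanCurv V F x n = 0)
    (hng : ¬ ∃ a : W, a ≠ 0 ∧ ∀ x, ⟪F x, a⟫ = 0) :
    ENNReal.ofReal (leastClifford (finrank ℝ V)) ≤ volM V F univ := by
  have hfar : ∀ N : M → W, ContMDiff 𝓘(ℝ, V) 𝓘(ℝ, W) ∞ N → (∀ x, IsUnitNormal V F x (N x)) →
      ‖∫ x, N x ∂(volM V F)‖ ≤ sphereVol (finrank ℝ V) →
      (volM V F).real univ ≤ leastClifford (finrank ℝ V) →
      ‖∫ x, N x ∂(volM V F)‖ < 3 / 100 * (volM V F).real univ :=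
    fun N hNs hN htop hhi => H979.far_thin_even h1 h2 hV hW hF hmin hng hNs hN htop hhi
  interval_cases k
  · exact even_tab hV hW hF hmin hng hfar TbE.r18_ok (by rw [hV]; rfl) (by decide) TbE.row18
      TbE.ok18 TbE.el18 (by norm_num [TbE.p18]) rfl (by norm_num [TbE.p18])
  · exact even_tab hV hW hF hmin hng hfar TbE.r20_ok (by rw [hV]; rfl) (by decide) TbE.row20
      TbE.ok20 TbE.el20 (by norm_num [TbE.p20]) rfl (by norm_num [TbE.p20])
  · exact even_tab hV hW hF hmin hng hfar TbE.r22_ok (by rw [hV]; rfl) (by decide) TbE.row22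
      TbE.ok22 TbE.el22 (by norm_num [TbE.p22]) rfl (by norm_num [TbE.p22])
  · exact even_tab hV hW hF hmin hng hfar TbE.r24_ok (by rw [hV]; rfl) (by decide) TbE.row24
      TbE.ok24 TbE.el24 (by norm_num [TbE.p24]) rfl (by norm_num [TbE.p24])
  · exact even_tab hV hW hF hmin hng hfar TbE.r26_ok (by rw [hV]; rfl) (by decide) TbE.row26
      TbE.ok26 TbE.el26 (by norm_num [TbE.p26]) rfl (by norm_num [TbE.p26])
  · exact even_tab hV hW hF hmin hng hfar TbE.r28_ok (by rw [hV]; rfl) (by decide) TbE.row28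
      TbE.ok28 TbE.el28 (by norm_num [TbE.p28]) rfl (by norm_num [TbE.p28])
  · exact even_tab hV hW hF hmin hng hfar TbE.r30_ok (by rw [hV]; rfl) (by decide) TbE.row30
      TbE.ok30 TbE.el30 (by norm_num [TbE.p30]) rfl (by norm_num [TbE.p30])
  · exact even_tab hV hW hF hmin hng hfar TbE.r32_ok (by rw [hV]; rfl) (by decide) TbE.row32
      TbE.ok32 TbE.el32 (by norm_num [TbE.p32]) rfl (by norm_num [TbE.p32])
  · exact even_tab hV hW hF hmin hng (far34 (by rw [hV]) hW hF hmin hng) TbE.r34_ok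
      (by rw [hV]; rfl) (by decide) TbE.row34
      TbE.ok34 TbE.el34 (by norm_num [TbE.p34]) rfl (by norm_num [TbE.p34])

end

end Vale.Agent.P224.R2.H176
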