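import Vale.Agent.P224.R2.H176.G.Lam
import Vale.Agent.P224.R2.H424.Tls2
import Vale.Agent.P224.R2.H460.Row
import Vale.Agent.P224.R2.H470.OneInst
import Vale.Agent.P224.R2.H728.T0m
import Vale.Agent.P224.R2.H582.Conv

/-!
The absolute and the relative tail for minimal hypersurfaces, in coordinates.
-/

namespace Vale.Agent.P224.R2.H176

open MeasureTheory Set Function Real Module Matrix Vale.Agent.P224 Vale.Agent.P224.FV
  Vale.Agent.P224.R2.H869 Vale.Agent.P224.R2.H582 Vale.Agent.P224.R2.H820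
  Vale.Agent.P224.R2.H484 Vale.Agent.P224.R2.H728 Vale.Agent.P224.R2.H424.Tls
open Vale.Agent.P224.SM2 hiding ker
open Vale.Agent.P224.R2.H470 hiding tg
open scoped Topology RealInnerProductSpace ContDiff Manifold

set_option linter.unusedSectionVars false

section

variable {V W M : Type*} [NormedAddCommGroup V] [InnerProductSpace ℝ V] [FiniteDimensional ℝ V]
  [NormedAddCommGroup W] [InnerProductSpace ℝ W] [FiniteDimensional ℝ W]
  [TopologicalSpace M] [ChartedSpace V M]
  [MeasurableSpace V] [BorelSpace V] [MeasurableSpace M] [BorelSpace M]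
  [MeasurableSpace W] [BorelSpace W] [IsManifold 𝓘(ℝ, V) ∞ M]
  [CompactSpace M] [T2Space M]

/-- the row of the conformal volume -/
theorem minRow_of_min (hm : 1 ≤ finrank ℝ V) (hW : finrank ℝ W = finrank ℝ V + 2) {F : M → W}
    (hF : SphImm V F) (hmin : ∀ x n, IsUnitNormal V F x n → meanCurv V F x n = 0)
    {N : M → W} (hNs : ContMDiff 𝓘(ℝ, V) 𝓘(ℝ, W) ∞ N) (hN : ∀ x, IsUnitNormal V F x (N x)) :
    MinRow (volM V F) (finrank ℝ V) F N where
  mp := hF.smooth.continuous.measurable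
  mn := hNs.continuous.measurable
  np := hF.unit
  nn := fun x => (hN x).1
  row := by
    have hfin : IsFiniteMeasure (volM V F) := isFiniteMeasure_volM hF
    have h := oneP_of_min hW hF hmin hNs hN
    have hsc : SecondCountableTopology M := ChartedSpace.secondCountable_of_sigmaCompact V M
    intro a ha ρ hρ
    have h1 := H460.row1 h hm hρ.1 hρ.2 ha a
    rw [← neg_eq_zero, ← integral_neg] at h1
    rw [← h1]
    refine integral_congr_ae (Filter.Eventually.of_forall fun x => ?_)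
    simp only [H460.kr, SM2.ker]
    rw [inner_sub_left, real_inner_smul_left, real_inner_self_eq_norm_sq, ha,
      real_inner_comm (F x) a, real_inner_comm (N x) a]
    ring

/-- **the absolute tail**, `17 ≤ m ≤ 36` -/
theorem abs17_min (hm : 17 ≤ finrank ℝ V) (hm' : finrank ℝ V ≤ 36)
    (hW : finrank ℝ W = finrank ℝ V + 2) {F : M → W}
    (hF : SphImm V F) (hmin : ∀ x n, IsUnitNormal V F x n → meanCurv V F x n = 0)
    {N : M → W} (hNs : ContMDiff 𝓘(ℝ, V) 𝓘(ℝ, W) ∞ N) (hN : ∀ x, IsUnitNormal V F x (N x)) :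
    AbsTail (volM V F) (finrank ℝ V) F N (fun T => (1 - T ^ 2) * lam17 T)
      (abQ (finrank ℝ V)) := by
  have hfin : IsFiniteMeasure (volM V F) := isFiniteMeasure_volM hF
  have hnt : Nontrivial W := Module.nontrivial_of_finrank_pos (R := ℝ) (by omega)
  exact abs17 (two_of_min hW hF hmin hNs hN) (minRow_of_min (by omega) hW hF hmin hNs hN) hm hm'

/-- the deviation from the linear field -/
noncomputable def zf {ι : Type*} [Fintype ι] (b : OrthonormalBasis ι ℝ W) (j : ι → ℝ)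
    (F N : M → W) (x : M) : W := N x - ∑ a, (j a * ⟪F x, b a⟫) • b a

section

variable {ι : Type*} [Fintype ι] [DecidableEq ι] (b : OrthonormalBasis ι ℝ W) (j : ι → ℝ)
  (F N : M → W)

lemma zf_coord (x : M) (a : ι) : ⟪zf b j F N x, b a⟫ = ⟪N x, b a⟫ - j a * ⟪F x, b a⟫ := by
  unfold zf
  rw [inner_sub_left, sum_inner]
  congr 1
  rw [Finset.sum_eq_single a]
  · rw [real_inner_smul_left, real_inner_self_eq_norm_sq, b.norm_eq_one]
    ring
  · intro c _ hc
    rw [real_inner_smul_left, b.inner_eq_zero hc, mul_zero]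
  · intro h
    exact absurd (Finset.mem_univ a) h

lemma norm_zf (x : M) : ‖zf b j F N x‖ ^ 2
    = et (diagonal j) (co b F) (co b N) x ⬝ᵥ et (diagonal j) (co b F) (co b N) x := by
  rw [← b.sum_sq_inner_left (zf b j F N x)]
  unfold dotProduct
  refine Finset.sum_congr rfl fun a _ => ?_
  have e1 : et (diagonal j) (co b F) (co b N) x a = ⟪N x, b a⟫ - j a * ⟪F x, b a⟫ := by
    unfold et
    rw [Pi.sub_apply, mulVec_diagonal]
    rfl
  rw [e1, zf_coord]
  ring

lemma zf_pair (x y : M) : ⟪N x, F y⟫ - ⟪F x, N y⟫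
    = ⟪zf b j F N x, F y⟫ - ⟪F x, zf b j F N y⟫ := by
  unfold zf
  rw [inner_sub_left, inner_sub_right, sum_inner, inner_sum]
  have e : ∑ a, ⟪(j a * ⟪F x, b a⟫) • b a, F y⟫ = ∑ a, ⟪F x, (j a * ⟪F y, b a⟫) • b a⟫ := by
    refine Finset.sum_congr rfl fun a _ => ?_
    rw [real_inner_smul_left, real_inner_smul_right, real_inner_comm (F y) (b a)]
    ring
  rw [e]
  ring

end

/-- the mean of the square of the deviation -/
lemma int_zf {F N : M → W} {ι : Type*} [Fintype ι] [DecidableEq ι]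
    (b : OrthonormalBasis ι ℝ W) (j : ι → ℝ) :
    (∫ x, ‖zf b j F N x‖ ^ 2 ∂(volM V F)) / (volM V F).real univ
      = hh (nrm (volM V F)) (diagonal j) (co b F) (co b N) := by
  unfold hh nrm
  rw [integral_smul_measure, ENNReal.toReal_inv, smul_eq_mul]
  have e : ∫ x, ‖zf b j F N x‖ ^ 2 ∂(volM V F)
      = ∫ x, et (diagonal j) (co b F) (co b N) x ⬝ᵥ et (diagonal j) (co b F) (co b N) x
        ∂(volM V F) := by
    congr 1
    funext x
    exact norm_zf b j F N x
  rw [e, div_eq_inv_mul]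
  rfl

/-- **the relative tail** for a minimal hypersurface, arbitrary thresholds -/
theorem tls_min [Nonempty M] (hm : 17 ≤ finrank ℝ V)
    (hW : finrank ℝ W = finrank ℝ V + 2) {F : M → W}
    (hF : SphImm V F) (hmin : ∀ x n, IsUnitNormal V F x n → meanCurv V F x n = 0)
    {N : M → W} (hNs : ContMDiff 𝓘(ℝ, V) 𝓘(ℝ, W) ∞ N) (hN : ∀ x, IsUnitNormal V F x (N x))
    {ι : Type*} [Fintype ι] [DecidableEq ι] (b : OrthonormalBasis ι ℝ W) (j : ι → ℝ)
    {m : ℕ} (hmm : m = finrank ℝ V)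
    {i : ℕ} {l : ℝ → ℝ} {θ C : ℕ → ℝ} (hθ : ∀ c < 20, 0 < θ c) (hC0 : ∀ c < 20, 0 ≤ C c)
    (hC : ∀ c < 20, ∀ T ∈ Ioo (0 : ℝ) 1, tg c < T → T ≤ tg (c + 1) →
      ∀ t ∈ Icc (0 : ℝ) 1, m * t - l T ≤ C c * t ^ i) (h19 : C 19 = 0) :
    ∃ τ : ℝ → ℝ, IntervalIntegrable τ volume 0 1 ∧
      (∀ T ∈ Ioo (0 : ℝ) 1, (m + 1) * (m + 2) * T ^ 2 * rM m T / (1 - T ^ 2) / 2
        * E2 (volM V F) F N (TK m T (l T)) ≤ τ T * (volM V F).real univ ^ 2) ∧
      ∫ T in (0 : ℝ)..1, τ T = relC m i 1 θ C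
        * hh (nrm (volM V F)) (diagonal j) (co b F) (co b N) := by
  subst hmm
  have hfin : IsFiniteMeasure (volM V F) := isFiniteMeasure_volM hF
  have hnt : Nontrivial W := Module.nontrivial_of_finrank_pos (R := ℝ) (by omega)
  have hvpos : 0 < volM V F univ := volM_pos_of_isOpen hW hF isOpen_univ univ_nonempty
  have hA : 0 < (volM V F).real univ := ENNReal.toReal_pos hvpos.ne' (measure_ne_top _ _)
  have hcF : Continuous F := hF.smooth.continuous
  have hcN : Continuous N := hNs.continuous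
  have hcz : Continuous (zf b j F N) := by
    unfold zf
    fun_prop
  obtain ⟨C0, hC0'⟩ := (isCompact_univ (X := M)).exists_bound_of_continuousOn hcz.continuousOn
  have hzC : ∀ x, ‖zf b j F N x‖ ≤ C0 := fun x => hC0' x (mem_univ x)
  have hfin2 : ∀ g : M → ℝ, Continuous g → Integrable g (volM V F) := fun g hg =>
    hg.integrable_of_hasCompactSupport (HasCompactSupport.of_compactSpace g)
  have hF1 : ∫ x, ⟪zf b j F N x, F x⟫ ^ 2 ∂(volM V F)
      ≤ 1 * ∫ x, ‖zf b j F N x‖ ^ 2 ∂(volM V F) := by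
    rw [one_mul]
    refine integral_mono (hfin2 _ (by fun_prop)) (hfin2 _ (by fun_prop)) fun x => ?_
    have h1 := abs_real_inner_le_norm (zf b j F N x) (F x)
    rw [hF.unit x, mul_one] at h1
    exact sq_le_sq' (by linarith [(abs_le.1 h1).1]) (abs_le.1 h1).2
  obtain ⟨τ, h1, h2, h3⟩ := tls_gen hm (two_of_min hW hF hmin hNs hN)
    (minRow_of_min (by omega) hW hF hmin hNs hN) hA hcz.measurable hzC (zf_pair b j F N)
    zero_le_one hF1 hθ hC0 hC h19
  exact ⟨τ, h1, h2, by rw [h3, int_zf]⟩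

end

end Vale.Agent.P224.R2.H176
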