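import Vale.Agent.P224.R2.H176.G.RelD
import Vale.Agent.P224.R2.H925.Blk
import Vale.Agent.P224.R2.H433.Gap

/-!
One dimension `17 ≤ m ≤ 36`: from the far range and the checked tables to the sharp bound in even
dimension, and to the small box in odd dimension.
-/

namespace Vale.Agent.P224.R2.H176

open MeasureTheory Set Function Real Module Matrix Vale.Agent.P224 Vale.Agent.P224.FV
  Vale.Agent.P224.R2.H582 Vale.Agent.P224.R2.H820 Vale.Agent.P224.R2.H627
  Vale.Agent.P224.R2.H484 Vale.Agent.P224.R2.H728 Vale.Agent.P224.R2.H925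
  Vale.Agent.P224.UE
open Vale.Agent.P224.SM2 hiding ker
open Vale.Agent.P224.R2.H424.Tls (relD)
open scoped Topology RealInnerProductSpace ContDiff Manifold ENNReal

set_option linter.unusedSectionVars false

section

variable {V W M : Type*} [NormedAddCommGroup V] [InnerProductSpace ℝ V] [FiniteDimensional ℝ V]
  [NormedAddCommGroup W] [InnerProductSpace ℝ W] [FiniteDimensional ℝ W]
  [TopologicalSpace M] [ChartedSpace V M]
  [MeasurableSpace V] [BorelSpace V] [MeasurableSpace M] [BorelSpace M]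
  [MeasurableSpace W] [BorelSpace W] [IsManifold 𝓘(ℝ, V) ∞ M]
  [CompactSpace M] [T2Space M]

/-- the near range of one dimension from the checked tables -/
theorem near_tab [Nonempty M] {r : NRow} (hr : nrowOK 17 17 17 17 17 r = true)
    (hmm : r.m = finrank ℝ V) (hm2 : r.m ≤ 36) (hW : finrank ℝ W = finrank ℝ V + 2)
    {F : M → W} (hF : SphImm V F) (hmin : ∀ x n, IsUnitNormal V F x n → meanCurv V F x n = 0)
    {p : ParQ} {laws : List LawQ} {els : List (ElQ × ℚ × ℚ)} {cols : List ColQ}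
    (hrow : rowOK r p laws (relD r.m) = true)
    (hok : nearOK p laws (els.map Prod.fst) cols = true) (hels : e7All p.m els = true)
    {ν : ℝ} (hν : ν ≤ p.ν)
    (N : M → W) (b : OrthonormalBasis (Fin (finrank ℝ W)) ℝ W) (j : Fin (finrank ℝ W) → ℝ)
    (hd : NearData V F N b j ν) : NearOut V F N b j p.gp p.h1 p.d1 := by
  obtain ⟨hm17, -, -, -, -, -⟩ := nrow_sound hr
  refine near_row hr hmm hm2 hW hF hmin hrow hok hels hν (fun N' b' j' hd' => ?_) N b j hd
  have h := relD_min (by omega) (by omega) hW hF hmin hd'.smooth hd'.unit b' j' (m := r.m) hmm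
  rw [hmm] at h ⊢
  exact h

/-- **one even dimension** `18 ≤ m ≤ 36`: the far range and the checked tables give the sharp
bound -/
theorem even_tab [ConnectedSpace M] {k : ℕ} (hV : finrank ℝ V = 2 * k)
    (hW : finrank ℝ W = finrank ℝ V + 2)
    {F : M → W} (hF : SphImm V F) (hmin : ∀ x n, IsUnitNormal V F x n → meanCurv V F x n = 0)
    (hng : ¬ ∃ a : W, a ≠ 0 ∧ ∀ x, ⟪F x, a⟫ = 0) {ν : ℝ}
    (hfar : ∀ N : M → W, ContMDiff 𝓘(ℝ, V) 𝓘(ℝ, W) ∞ N → (∀ x, IsUnitNormal V F x (N x)) →
      ‖∫ x, N x ∂(volM V F)‖ ≤ sphereVol (finrank ℝ V) →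
      (volM V F).real univ ≤ leastClifford (finrank ℝ V) →
      ‖∫ x, N x ∂(volM V F)‖ < ν * (volM V F).real univ)
    {r : NRow} (hr : nrowOK 17 17 17 17 17 r = true) (hmm : r.m = finrank ℝ V) (hm2 : r.m ≤ 36)
    {p : ParQ} {laws : List LawQ} {els : List (ElQ × ℚ × ℚ)} {cols : List ColQ}
    (hrow : rowOK r p laws (relD r.m) = true)
    (hok : nearOK p laws (els.map Prod.fst) cols = true) (hels : e7All p.m els = true)
    (hν : ν ≤ p.ν) (hgp : p.gp = 0) (hh1 : p.h1 < 0) :
    ENNReal.ofReal (leastClifford (finrank ℝ V)) ≤ volM V F univ := by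
  obtain ⟨hm17, -, -, -, -, -⟩ := nrow_sound hr
  have hh1R : (p.h1 : ℝ) < 0 := by exact_mod_cast hh1
  refine even_glue (k := k) (by omega) hV hW hF hmin hng hfar hh1R (d1 := p.d1)
    fun N b j hd => ?_
  have h := near_tab hr hmm hm2 hW hF hmin hrow hok hels hν N b j hd
  rw [hgp, Rat.cast_zero] at h
  exact h

end

end Vale.Agent.P224.R2.H176
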