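import Vale.Agent.P224.R2.H176.G.Ev
import Vale.Agent.P224.R2.H178.OdD

/-!
**The sharp volume bound in the dimensions from 17 to 35.**
-/

namespace Vale.Agent.P224.R2.H176

open MeasureTheory Set Function Real Module Vale.Agent.P224 Vale.Agent.P224.FV
open scoped Topology RealInnerProductSpace ContDiff Manifold ENNReal

variable {V W M : Type*} [NormedAddCommGroup V] [InnerProductSpace ℝ V] [FiniteDimensional ℝ V]
  [NormedAddCommGroup W] [InnerProductSpace ℝ W] [FiniteDimensional ℝ W]
  [TopologicalSpace M] [ChartedSpace V M]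
  [MeasurableSpace V] [BorelSpace V] [MeasurableSpace M] [BorelSpace M]
  [MeasurableSpace W] [BorelSpace W] [IsManifold 𝓘(ℝ, V) ∞ M]
  [CompactSpace M] [T2Space M] [ConnectedSpace M]

/-- **The sharp volume bound in the dimensions from 17 to 35.** -/
theorem mid35 (h17 : 17 ≤ finrank ℝ V) (h35 : finrank ℝ V ≤ 35)
    (hW : finrank ℝ W = finrank ℝ V + 2)
    {F : M → W} (hF : SphImm V F) (hmin : ∀ x n, IsUnitNormal V F x n → meanCurv V F x n = 0)
    (hng : ¬ ∃ a : W, a ≠ 0 ∧ ∀ x, ⟪F x, a⟫ = 0) :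
    ENNReal.ofReal (leastClifford (finrank ℝ V)) ≤ volM V F univ := by
  rcases Nat.even_or_odd' (finrank ℝ V) with ⟨k, hk | hk⟩
  · exact even_block (k := k) (by omega) (by omega) hk hW hF hmin hng
  · exact H178.odd_block (h := k) (by omega) (by omega) hk hW hF hmin hng

end Vale.Agent.P224.R2.H176
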