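import Vale.Agent.P224.R2.H166.Upto16
import Vale.Agent.P224.R2.H176.G.Mid
import Vale.Agent.P224.R2.H176.G.E36
import Vale.Agent.P224.R2.H178.Mid399
import Vale.Agent.P224.R2.H433.Big

/-!
**The sharp volume bound in every dimension.**
-/

namespace Vale.Agent.P224.R2.H176

open MeasureTheory Set Function Real Module Vale.Agent.P224 Vale.Agent.P224.FV
open scoped Topology RealInnerProductSpace ContDiff Manifold ENNReal

variable {V W M : Type*} [NormedAddCommGroup V] [InnerProductSpace ℝ V] [FiniteDimensional ℝ V]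
  [NormedAddCommGroup W] [InnerProductSpace ℝ W] [FiniteDimensional ℝ W]
  [TopologicalSpace M] [ChartedSpace V M]
  [MeasurableSpace V] [BorelSpace V] [MeasurableSpace M] [BorelSpace M]
  [MeasurableSpace W] [BorelSpace W] [IsManifold 𝓘(ℝ, V) ∞ M]
  [CompactSpace M] [T2Space M] [ConnectedSpace M]

/-- **The sharp volume bound in every dimension.** -/
theorem full (h2 : 2 ≤ finrank ℝ V) (hW : finrank ℝ W = finrank ℝ V + 2)
    {F : M → W} (hF : SphImm V F) (hmin : ∀ x n, IsUnitNormal V F x n → meanCurv V F x n = 0)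
    (hng : ¬ ∃ a : W, a ≠ 0 ∧ ∀ x, ⟪F x, a⟫ = 0) :
    ENNReal.ofReal (leastClifford (finrank ℝ V)) ≤ volM V F univ := by
  rcases le_or_gt (finrank ℝ V) 16 with h1 | h1
  · exact H166.upto16 h2 h1 hW hF hmin hng
  rcases le_or_gt (finrank ℝ V) 35 with h3 | h3
  · exact mid35 (by omega) h3 hW hF hmin hng
  rcases eq_or_lt_of_le (show 36 ≤ finrank ℝ V by omega) with h4 | h4
  · exact even_36_38 h4.le (by omega) (by rw [← h4]; decide) hW hF hmin hng
  rcases le_or_gt (finrank ℝ V) 399 with h5 | h5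
  · exact H178.mid399 (by omega) h5 hW hF hmin hng
  · exact H433.big (by omega) hW hF hmin hng

end Vale.Agent.P224.R2.H176
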