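import Vale.Agent.P224.R2.H484.AbsV
import Vale.Agent.P224.R2.H627.DCond

/-!
The threshold function for the dimensions `17 ≤ m ≤ 36`, and the absolute tail for it.
-/

namespace Vale.Agent.P224.R2.H176

open MeasureTheory Set Function Real Module Vale.Agent.P224 Vale.Agent.P224.SM2
  Vale.Agent.P224.R2.H869 Vale.Agent.P224.R2.H582 Vale.Agent.P224.R2.H820
  Vale.Agent.P224.R2.H484 Vale.Agent.P224.R2.H627

/-- the threshold function -/
noncomputable def lam17 (T : ℝ) : ℝ :=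
  if T < 1 / 2 then 17 * (1 + T ^ 2 + T ^ 4 + T ^ 6 + T ^ 8)
  else max (35 / 2) (23 / 2 / (1 - T ^ 2)) / (1 - T ^ 2)

lemma lam17_low {T : ℝ} (hT : T < 1 / 2) :
    lam17 T = 17 * (1 + T ^ 2 + T ^ 4 + T ^ 6 + T ^ 8) := if_pos hT

lemma lam17_mul_low {T : ℝ} (hT : T < 1 / 2) : (1 - T ^ 2) * lam17 T = 17 * (1 - T ^ 10) := by
  rw [lam17_low hT]
  ring

lemma lam17_mul_high {T : ℝ} (hT : 1 / 2 ≤ T) (hT1 : T < 1) :
    (1 - T ^ 2) * lam17 T = max (35 / 2) (23 / 2 / (1 - T ^ 2)) := by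
  have hk : 0 < 1 - T ^ 2 := by nlinarith
  unfold lam17
  rw [if_neg (not_lt.2 hT)]
  field_simp

lemma pow_ten {T : ℝ} (h0 : 0 ≤ T) (hT : T ≤ 1 / 2) : T ^ 10 ≤ 1 / 1024 := by
  have h := pow_le_pow_left₀ h0 hT 10
  norm_num at h
  linarith

/-- the threshold is admissible -/
lemma lam17_adm {T : ℝ} (t : ℝ) (hT : T ∈ Ioo (0 : ℝ) 1) :
    Adm t (1 - T ^ 2) ((1 - T ^ 2) * lam17 T) := by
  have hk : 0 < 1 - T ^ 2 := by nlinarith [hT.1, hT.2]
  left
  rcases lt_or_ge T (1 / 2) with h | h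
  · left
    rw [lam17_mul_low h]
    have : 0 ≤ T ^ 10 := by positivity
    linarith
  · rw [lam17_mul_high h hT.2]
    rcases le_total (35 / 2 : ℝ) (23 / 2 / (1 - T ^ 2)) with h2 | h2
    · right
      rw [max_eq_right h2, mul_div_cancel₀ _ hk.ne']
    · left
      rw [max_eq_left h2]

/-- the condition of the crude law -/
lemma lam17_hl {T : ℝ} (hT : T ∈ Ioo (0 : ℝ) (3 / 10)) : (1 - T ^ 2) * lam17 T ≤ 94 / 5 := by
  rw [lam17_mul_low (by linarith [hT.2])]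
  have : 0 ≤ T ^ 10 := by positivity
  linarith

lemma lam17_ge1 {T : ℝ} (hT : T ∈ Ioo (0 : ℝ) 1) : (849 / 50 : ℝ) ≤ (1 - T ^ 2) * lam17 T := by
  rcases lt_or_ge T (1 / 2) with h | h
  · rw [lam17_mul_low h]
    have := pow_ten hT.1.le h.le
    linarith
  · rw [lam17_mul_high h hT.2]
    exact le_trans (by norm_num) (le_max_left _ _)

lemma lam17_ge2 {T : ℝ} (hT : T ∈ Ioo (0 : ℝ) 1) :
    (23 / 2 : ℝ) / (1 - T ^ 2) ≤ (1 - T ^ 2) * lam17 T := by
  rcases lt_or_ge T (1 / 2) with h | h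
  · rw [lam17_mul_low h]
    have h1 := pow_ten hT.1.le h.le
    have h2 : 3 / 4 ≤ 1 - T ^ 2 := by nlinarith [hT.1]
    have h3 : (23 / 2 : ℝ) / (1 - T ^ 2) ≤ 23 / 2 / (3 / 4) :=
      div_le_div_of_nonneg_left (by norm_num) (by norm_num) h2
    refine h3.trans ?_
    norm_num
    linarith
  · rw [lam17_mul_high h hT.2]
    exact le_max_right _ _

/-- the absolute bounds -/
def abQ (m : ℕ) : ℚ := if m ≤ 28 then 1 / 100000 else 22 / 1000000

lemma ok_abQ : (List.range 20).all (fun i =>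
    absOK (17 + i) (1 / ((17 + i : ℕ) : ℚ)) (lcF (849 / 50) (23 / 2)) (abQ (17 + i))) = true := by
  decide +kernel

section

variable {X : Type*} [MeasurableSpace X] {E : Type*} [NormedAddCommGroup E]
  [InnerProductSpace ℝ E] [MeasurableSpace E] [BorelSpace E] [SecondCountableTopology E]
  {μ : Measure X} [IsFiniteMeasure μ] {m : ℕ} {p n : X → E}

/-- **the absolute tail**, `17 ≤ m ≤ 36` -/
theorem abs17 [Nontrivial E] (h2 : Two μ m p n) (h1 : MinRow μ m p n) (hm : 17 ≤ m)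
    (hm' : m ≤ 36) : AbsTail μ m p n (fun T => (1 - T ^ 2) * lam17 T) (abQ m) := by
  obtain ⟨i, rfl⟩ : ∃ i, m = 17 + i := ⟨m - 17, by omega⟩
  have hok := List.all_eq_true.1 ok_abQ i (List.mem_range.2 (by omega))
  refine abs_max h2 h1 hok (by omega) le_rfl ?_ (by norm_num) (fun T hT => ?_) fun T hT => ?_
  · push_cast
    exact le_rfl
  · push_cast
    exact lam17_ge1 hT
  · push_cast
    exact lam17_ge2 hT

end

end Vale.Agent.P224.R2.H176
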