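import Vale.Agent.P224.R2.H176.G.Mid
import Vale.Agent.P224.R2.H577.Sharp

/-!
The dimensions from 17 to 35 in the form of the final case distinction.
-/

namespace Vale.Agent.P224.R2.H176

open Module Vale.Agent.P224.R2.H577

universe u v w

/-- **The sharp volume bound in the dimensions from 17 to 35.** -/
theorem sharp_mid {m : ℕ} (h17 : 17 ≤ m) (h35 : m ≤ 35) : Sharp.{u, v, w} m := by
  intro V W M _ _ _ _ _ _ _ _ _ _ _ _ _ _ _ _ _ _ hV hW F hF hmin hng
  subst hV
  exact mid35 h17 h35 hW hF hmin hng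

end Vale.Agent.P224.R2.H176
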