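import Vale.Agent.P224.R2.H178.Od0
import Vale.Agent.P224.R2.H742.FlowO

/-!
One odd dimension: from the far range, the checked tables and the law in the small box for the flow
of the problem to the sharp bound.
-/

namespace Vale.Agent.P224.R2.H176

open MeasureTheory Set Function Real Module Matrix Vale.Agent.P224 Vale.Agent.P224.FV
  Vale.Agent.P224.R2.H925 Vale.Agent.P224.R2.H582 Vale.Agent.P224.R2.H728 Vale.Agent.P224.R2.H742
  Vale.Agent.P224.R2.H178 Vale.Agent.P224.UE Vale.Agent.P224.R2.H494.ZT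
  Vale.Agent.P224.R2.H820 Vale.Agent.P224.R2.H627
open Vale.Agent.P224.SM2 hiding ker
open Vale.Agent.P224.R2.H424 (ZSol zsol)
open Vale.Agent.P224.R2.H424.Tls (relD)
open scoped Topology RealInnerProductSpace ContDiff Manifold ENNReal

set_option linter.unusedSectionVars false

/-- the data of the flow in dimension `m` -/
theorem exists_flow {m : ℕ} (hm : 17 ≤ m) :
    ∃ (L : ℝ) (_ : ZSol ((m : ℝ) / 2) L) (r : ℝ), L * ((m : ℝ) ^ 2 - 1) = 4 ∧ 0 < r ∧
      r ^ 2 = (m : ℝ) ^ 2 - 1 := by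
  have hmR : (17 : ℝ) ≤ m := by exact_mod_cast hm
  have hm1 : 0 < (m : ℝ) ^ 2 - 1 := by nlinarith
  have hL : 4 / ((m : ℝ) ^ 2 - 1) * ((m : ℝ) ^ 2 - 1) = 4 := div_mul_cancel₀ _ hm1.ne'
  exact ⟨4 / ((m : ℝ) ^ 2 - 1), zsol (par_of hm hL), √((m : ℝ) ^ 2 - 1), hL, sqrt_pos.2 hm1,
    sq_sqrt hm1.le⟩

section

variable {V W M : Type*} [NormedAddCommGroup V] [InnerProductSpace ℝ V] [FiniteDimensional ℝ V]
  [NormedAddCommGroup W] [InnerProductSpace ℝ W] [FiniteDimensional ℝ W]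
  [TopologicalSpace M] [ChartedSpace V M]
  [MeasurableSpace V] [BorelSpace V] [MeasurableSpace M] [BorelSpace M]
  [MeasurableSpace W] [BorelSpace W] [IsManifold 𝓘(ℝ, V) ∞ M]
  [CompactSpace M] [T2Space M] [ConnectedSpace M]

/-- **one odd dimension**, the law in the box stated for every solution of the flow -/
theorem odd_dim {h : ℕ} (h8 : 8 ≤ h) (hV : finrank ℝ V = 2 * h + 1)
    (hW : finrank ℝ W = finrank ℝ V + 2)
    {F : M → W} (hF : SphImm V F) (hmin : ∀ x n, IsUnitNormal V F x n → meanCurv V F x n = 0)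
    (hng : ¬ ∃ a : W, a ≠ 0 ∧ ∀ x, ⟪F x, a⟫ = 0) {ν : ℝ}
    (hfar : ∀ N : M → W, ContMDiff 𝓘(ℝ, V) 𝓘(ℝ, W) ∞ N → (∀ x, IsUnitNormal V F x (N x)) →
      ‖∫ x, N x ∂(volM V F)‖ ≤ sphereVol (finrank ℝ V) →
      (volM V F).real univ ≤ leastClifford (finrank ℝ V) →
      ‖∫ x, N x ∂(volM V F)‖ < ν * (volM V F).real univ)
    {r : NRow} (hr : nrowOK 17 17 17 17 17 r = true) (hmm : r.m = finrank ℝ V) (hm2 : r.m ≤ 36)
    {p : ParQ} {laws : List LawQ} {els : List (ElQ × ℚ × ℚ)} {cols : List ColQ}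
    (hrow : rowOK r p laws (relD r.m) = true)
    (hok : nearOK p laws (els.map Prod.fst) cols = true) (hels : e7All p.m els = true)
    (hν : ν ≤ p.ν) (hgp : 1 / (3 * (r.m : ℚ) ^ 3) ≤ p.gp)
    (hodd : ∀ (L : ℝ) (s : ZSol ((finrank ℝ V : ℝ) / 2) L) (r' : ℝ),
      L * ((finrank ℝ V : ℝ) ^ 2 - 1) = 4 → 0 < r' → r' ^ 2 = (finrank ℝ V : ℝ) ^ 2 - 1 →
      ∀ (N : M → W) (b : OrthonormalBasis (Fin (finrank ℝ W)) ℝ W)
      (j : Fin (finrank ℝ W) → ℝ), NearData V F N b j ν →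
      hh (nrm (volM V F)) (Matrix.diagonal j) (co b F) (co b N) ≤ p.h1 →
      √(fro (De (nrm (volM V F)) (co b F) (co b N))) ≤ p.d1 →
      NearAtOdd V F N (2 / r') (s.P 1) (JE s 0)
        (((finrank ℝ V : ℝ) + 1) * (2 * (finrank ℝ V : ℝ) - 1) / r') (7 / r') (uZ s)) :
    ENNReal.ofReal (leastClifford (finrank ℝ V)) ≤ volM V F univ := by
  obtain ⟨L, s, r', hL, hr', hr2⟩ := exists_flow (m := finrank ℝ V) (by omega)
  exact odd_tab h8 hV hW hF hmin hng hfar hr hmm hm2 hrow hok hels hν hgp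
    (flow_uZ (by omega) hL s hr' hr2 rfl) (hodd L s r' hL hr' hr2)

end

end Vale.Agent.P224.R2.H176
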