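import Vale.Agent.P224.R2.H176.G.Tail
import Vale.Agent.P224.R2.H424.Tls3

/-!
The relative tail for the dimensions `17 ≤ m ≤ 36` with the threshold `lam17`.
-/

namespace Vale.Agent.P224.R2.H176

open MeasureTheory Set Function Real Module Matrix Vale.Agent.P224 Vale.Agent.P224.FV
  Vale.Agent.P224.R2.H869 Vale.Agent.P224.R2.H582 Vale.Agent.P224.R2.H820
  Vale.Agent.P224.R2.H484 Vale.Agent.P224.R2.H728 Vale.Agent.P224.R2.H424.Tls
open Vale.Agent.P224.SM2 hiding ker
open Vale.Agent.P224.R2.H470 hiding tg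
open scoped Topology RealInnerProductSpace ContDiff Manifold

set_option linter.unusedSectionVars false

/-- lower bounds of the thresholds on the cells -/
def lcG (c : ℕ) : ℚ :=
  if c ≤ 5 then 849 / 50 else if c ≤ 6 then 35 / 2 else max (35 / 2) (23 / 2 / kgQ c ^ 2)

/-- the weights on the cells -/
def thG : List ℚ := [1 / 10, 99 / 500, 293 / 1000, 77 / 200, 471 / 1000, 11 / 20, 78 / 125,
  69 / 100, 187 / 250, 4 / 5, 169 / 200, 441 / 500, 457 / 500, 47 / 50, 24 / 25, 122 / 125,
  987 / 1000, 497 / 500, 999 / 1000, 1]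

/-- the exponents and the bounds of the moment constants -/
def parG : List (ℕ × ℚ × ℚ × ℚ) := [
  (59, 361657 / 50000000000000, 3210561 / 500000000000000, 2855137 / 500000000000000),
  (59, 422643 / 125000000000000, 1490941 / 500000000000000, 263461 / 100000000000000),
  (59, 404263 / 250000000000000, 177109 / 125000000000000, 1243863 / 1000000000000000),
  (56, 121243 / 100000000000000, 1048833 / 1000000000000000, 454651 / 500000000000000),
  (43, 5645137 / 1000000000000000, 4672289 / 1000000000000000, 485107 / 125000000000000),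
  (36, 1430027 / 100000000000000, 1139339 / 100000000000000, 9121927 / 1000000000000000),
  (31, 3093679 / 100000000000000, 118691 / 5000000000000, 916549 / 50000000000000),
  (27, 6457447 / 100000000000000, 595639 / 12500000000000, 3544739 / 100000000000000),
  (24, 1192093 / 10000000000000, 847249 / 10000000000000, 6080907 / 100000000000000),
  (22, 884301 / 5000000000000, 1217197 / 10000000000000, 847249 / 10000000000000),
  (20, 1450519 / 5000000000000, 963067 / 5000000000000, 161977 / 1250000000000),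
  (19, 845493 / 2500000000000, 437997 / 2000000000000, 719323 / 5000000000000),
  (18, 412349 / 1000000000000, 2600771 / 10000000000000, 1666299 / 10000000000000),
  (17, 1052487 / 2000000000000, 403519 / 1250000000000, 402903 / 2000000000000),
  (16, 1407371 / 2000000000000, 4191457 / 10000000000000, 2543969 / 10000000000000),
  (15, 9871669 / 10000000000000, 1424743 / 2500000000000, 419829 / 1250000000000),
  (14, 145511 / 100000000000, 8124833 / 10000000000000, 37127 / 80000000000),
  (14, 243297 / 200000000000, 6720549 / 10000000000000, 3798971 / 10000000000000),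
  (13, 958239 / 500000000000, 510797 / 500000000000, 1396343 / 2500000000000),
  (13, 1633289 / 1000000000000, 8616147 / 10000000000000, 466289 / 1000000000000)]

/-- the relative bounds -/
def relG : ℕ → ℚ
  | 17 => 103 / 100000000000
  | 18 => 79 / 5000000000
  | 19 => 19 / 100000000
  | 20 => 39 / 20000000
  | 21 => 119 / 10000000
  | 22 => 223 / 5000000
  | 23 => 1 / 8000
  | 24 => 9 / 31250
  | 25 => 577 / 1000000
  | 26 => 21 / 20000
  | 27 => 7 / 4000
  | 28 => 137 / 50000
  | 29 => 41 / 10000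
  | 30 => 589 / 100000
  | 31 => 163 / 20000
  | 32 => 11 / 1000
  | 33 => 9 / 625
  | 34 => 93 / 5000
  | 35 => 117 / 5000
  | 36 => 73 / 2500
  | _ => 0

lemma ok_relG : (List.range 20).all (fun i =>
    relOK (17 + i) (parG.getD i (0, 0, 0, 0)).1 1 lcG (fun c => thG.getD c 1)
      (parG.getD i (0, 0, 0, 0)).2.1 (parG.getD i (0, 0, 0, 0)).2.2.1
      (parG.getD i (0, 0, 0, 0)).2.2.2 (relG (17 + i))) = true := by
  decide +kernel

lemma lcG_le (c : ℕ) (hc : c < 20) {T : ℝ} (hT : T ∈ Ioo (0 : ℝ) 1) (h1 : tg c < T) :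
    ((lcG c : ℚ) : ℝ) ≤ (1 - T ^ 2) * lam17 T := by
  have hk : 0 < 1 - T ^ 2 := by nlinarith [hT.1, hT.2]
  have e0 : (0 : ℝ) ≤ c := Nat.cast_nonneg c
  have e2 : (c : ℝ) ≤ 19 := by exact_mod_cast (by omega : c ≤ 19)
  unfold lcG
  split_ifs with h5 h6
  · push_cast
    exact lam17_ge1 hT
  · have e1 : (6 : ℝ) ≤ c := by exact_mod_cast (by omega : 6 ≤ c)
    have h4 : 1 / 2 < T := by
      refine lt_of_le_of_lt ?_ h1
      unfold tg
      rw [div_le_div_iff₀ (by norm_num) (by positivity)]
      nlinarith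
    rw [lam17_mul_high h4.le hT.2]
    push_cast
    exact le_max_left _ _
  · have e1 : (7 : ℝ) ≤ c := by exact_mod_cast (by omega : 7 ≤ c)
    have h4 : 1 / 2 < T := by
      refine lt_of_le_of_lt ?_ h1
      unfold tg
      rw [div_le_div_iff₀ (by norm_num) (by positivity)]
      nlinarith
    rw [lam17_mul_high h4.le hT.2]
    push_cast
    refine max_le_max le_rfl ?_
    have h5 : 1 - T ^ 2 ≤ kg c ^ 2 := by
      rw [← kg_sq]
      have := pow_le_pow_left₀ (tg_nonneg c) h1.le 2
      linarith
    rw [kgQ_cast]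
    exact div_le_div_of_nonneg_left (by norm_num) hk h5

section

variable {V W M : Type*} [NormedAddCommGroup V] [InnerProductSpace ℝ V] [FiniteDimensional ℝ V]
  [NormedAddCommGroup W] [InnerProductSpace ℝ W] [FiniteDimensional ℝ W]
  [TopologicalSpace M] [ChartedSpace V M]
  [MeasurableSpace V] [BorelSpace V] [MeasurableSpace M] [BorelSpace M]
  [MeasurableSpace W] [BorelSpace W] [IsManifold 𝓘(ℝ, V) ∞ M]
  [CompactSpace M] [T2Space M]

/-- **the relative tail**, `17 ≤ m ≤ 36` -/
theorem rel17_min [Nonempty M] (hm : 17 ≤ finrank ℝ V) (hm' : finrank ℝ V ≤ 36)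
    (hW : finrank ℝ W = finrank ℝ V + 2) {F : M → W}
    (hF : SphImm V F) (hmin : ∀ x n, IsUnitNormal V F x n → meanCurv V F x n = 0)
    {N : M → W} (hNs : ContMDiff 𝓘(ℝ, V) 𝓘(ℝ, W) ∞ N) (hN : ∀ x, IsUnitNormal V F x (N x))
    {ι : Type*} [Fintype ι] [DecidableEq ι] (b : OrthonormalBasis ι ℝ W) (j : ι → ℝ)
    {m : ℕ} (hmm : m = finrank ℝ V) :
    AbsTail (volM V F) m F N (fun T => (1 - T ^ 2) * lam17 T)
      (relG m * hh (nrm (volM V F)) (diagonal j) (co b F) (co b N)) := by
  have hfin : IsFiniteMeasure (volM V F) := isFiniteMeasure_volM hF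
  have hnt : Nontrivial W := Module.nontrivial_of_finrank_pos (R := ℝ) (by omega)
  have hvpos : 0 < volM V F univ := volM_pos_of_isOpen hW hF isOpen_univ univ_nonempty
  have hA : 0 < (volM V F).real univ := ENNReal.toReal_pos hvpos.ne' (measure_ne_top _ _)
  have hcF : Continuous F := hF.smooth.continuous
  have hcN : Continuous N := hNs.continuous
  have hcz : Continuous (zf b j F N) := by
    unfold zf
    fun_prop
  obtain ⟨C0, hC0'⟩ := (isCompact_univ (X := M)).exists_bound_of_continuousOn hcz.continuousOn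
  have hzC : ∀ x, ‖zf b j F N x‖ ≤ C0 := fun x => hC0' x (mem_univ x)
  have hfin2 : ∀ g : M → ℝ, Continuous g → Integrable g (volM V F) := fun g hg =>
    hg.integrable_of_hasCompactSupport (HasCompactSupport.of_compactSpace g)
  have hF1 : ∫ x, ⟪zf b j F N x, F x⟫ ^ 2 ∂(volM V F)
      ≤ ((1 : ℚ) : ℝ) * ∫ x, ‖zf b j F N x‖ ^ 2 ∂(volM V F) := by
    rw [Rat.cast_one, one_mul]
    refine integral_mono (hfin2 _ (by fun_prop)) (hfin2 _ (by fun_prop)) fun x => ?_
    have h1 := abs_real_inner_le_norm (zf b j F N x) (F x)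
    rw [hF.unit x, mul_one] at h1
    exact sq_le_sq' (by linarith [(abs_le.1 h1).1]) (abs_le.1 h1).2
  have h2 := two_of_min hW hF hmin hNs hN
  have h1 := minRow_of_min (by omega) hW hF hmin hNs hN
  rw [← hmm] at hm hm' h1 h2
  obtain ⟨i, rfl⟩ : ∃ i, m = 17 + i := ⟨m - 17, by omega⟩
  have hok := List.all_eq_true.1 ok_relG i (List.mem_range.2 (by omega))
  have h := rel_block hok hm h2 h1 hA hcz.measurable hzC (zf_pair b j F N) hF1
    (l := fun T => (1 - T ^ 2) * lam17 T) fun c hc T hT t1 _ => lcG_le c hc hT t1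
  rw [int_zf] at h
  exact h

end

end Vale.Agent.P224.R2.H176
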