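import Vale.Agent.P224.R2.H176.G.Tail
import Vale.Agent.P224.R2.H424.Tls6

/-!
The relative tail for the dimensions `17 ≤ m ≤ 36` with the threshold `lam17`, fine grid.
-/

namespace Vale.Agent.P224.R2.H176

open MeasureTheory Set Function Real Module Matrix Vale.Agent.P224 Vale.Agent.P224.FV
  Vale.Agent.P224.R2.H869 Vale.Agent.P224.R2.H582 Vale.Agent.P224.R2.H820
  Vale.Agent.P224.R2.H484 Vale.Agent.P224.R2.H728 Vale.Agent.P224.R2.H424.Tls
open Vale.Agent.P224.SM2 hiding ker
open scoped Topology RealInnerProductSpace ContDiff Manifold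

set_option linter.unusedSectionVars false

section

variable {V W M : Type*} [NormedAddCommGroup V] [InnerProductSpace ℝ V] [FiniteDimensional ℝ V]
  [NormedAddCommGroup W] [InnerProductSpace ℝ W] [FiniteDimensional ℝ W]
  [TopologicalSpace M] [ChartedSpace V M]
  [MeasurableSpace V] [BorelSpace V] [MeasurableSpace M] [BorelSpace M]
  [MeasurableSpace W] [BorelSpace W] [IsManifold 𝓘(ℝ, V) ∞ M]
  [CompactSpace M] [T2Space M]

/-- **the relative tail**, `17 ≤ m ≤ 36`, with the values `relD` -/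
theorem relD_min (hm : 17 ≤ finrank ℝ V) (hm' : finrank ℝ V ≤ 36)
    (hW : finrank ℝ W = finrank ℝ V + 2) {F : M → W}
    (hF : SphImm V F) (hmin : ∀ x n, IsUnitNormal V F x n → meanCurv V F x n = 0)
    {N : M → W} (hNs : ContMDiff 𝓘(ℝ, V) 𝓘(ℝ, W) ∞ N) (hN : ∀ x, IsUnitNormal V F x (N x))
    {ι : Type*} [Fintype ι] [DecidableEq ι] (b : OrthonormalBasis ι ℝ W) (j : ι → ℝ)
    {m : ℕ} (hmm : m = finrank ℝ V) :
    AbsTail (volM V F) m F N (fun T => (1 - T ^ 2) * lam17 T)
      (relD m * hh (nrm (volM V F)) (diagonal j) (co b F) (co b N)) := by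
  have hfin : IsFiniteMeasure (volM V F) := isFiniteMeasure_volM hF
  have hnt : Nontrivial W := Module.nontrivial_of_finrank_pos (R := ℝ) (by omega)
  have hcF : Continuous F := hF.smooth.continuous
  have hcN : Continuous N := hNs.continuous
  have hcz : Continuous (zf b j F N) := by
    unfold zf
    fun_prop
  obtain ⟨C0, hC0'⟩ := (isCompact_univ (X := M)).exists_bound_of_continuousOn hcz.continuousOn
  have h2 := two_of_min hW hF hmin hNs hN
  have h1 := minRow_of_min (by omega) hW hF hmin hNs hN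
  subst hmm
  have h := rel_D hm hm' h2 h1 hcz.measurable (fun x => hC0' x (mem_univ x)) (zf_pair b j F N)
    (l := fun T => (1 - T ^ 2) * lam17 T) (fun T hT h5 => ?_) fun T hT h5 => ?_
  · rw [int_zf] at h
    exact h
  · rcases lt_or_eq_of_le h5 with h5 | h5
    · exact (lam17_mul_low h5).ge
    · change 17 * (1 - T ^ 10) ≤ (1 - T ^ 2) * lam17 T
      rw [lam17_mul_high h5.ge hT.2]
      have : 0 ≤ T ^ 10 := by positivity
      exact le_trans (by linarith) (le_max_left _ _)
  · change 35 / 2 ≤ (1 - T ^ 2) * lam17 T ∧ 23 / 2 / (1 - T ^ 2) ≤ (1 - T ^ 2) * lam17 T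
    rw [lam17_mul_high h5.le hT.2]
    exact ⟨le_max_left _ _, le_max_right _ _⟩

end

end Vale.Agent.P224.R2.H176
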