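import Vale.Agent.P224.R2.H176.G.MidS
import Vale.Agent.P224.R2.H176.G.E36

/-!
The final case distinction with the dimensions from 17 to 36 filled in.
-/

namespace Vale.Agent.P224.R2.H176

open Module Vale.Agent.P224.R2.H577

universe u v w

/-- **The sharp volume bound in the dimensions 36 and 38.** -/
theorem sharp_36_38 {m : ℕ} (h1 : 36 ≤ m) (h2 : m ≤ 39) (hev : Even m) : Sharp.{u, v, w} m := by
  intro V W M _ _ _ _ _ _ _ _ _ _ _ _ _ _ _ _ _ _ hV hW F hF hmin hng
  subst hV
  exact even_36_38 h1 h2 hev hW hF hmin hng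

/-- **The final case distinction.** -/
theorem full_of_parts (h16 : ∀ m, 2 ≤ m → m ≤ 16 → Sharp.{u, v, w} m)
    (h399 : ∀ m, 37 ≤ m → m ≤ 399 → Sharp.{u, v, w} m)
    (hev : ∀ m, 400 ≤ m → Even m → Sharp.{u, v, w} m)
    (hod : ∀ m, 400 ≤ m → Odd m → Sharp.{u, v, w} m)
    (m : ℕ) (hm : 2 ≤ m) : Sharp.{u, v, w} m := by
  rcases le_or_gt m 16 with h1 | h1
  · exact h16 m hm h1
  rcases le_or_gt m 35 with h2 | h2
  · exact sharp_mid (by omega) h2
  rcases eq_or_lt_of_le (show 36 ≤ m by omega) with rfl | h3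
  · exact sharp_36_38 le_rfl (by norm_num) (by decide)
  rcases le_or_gt m 399 with h4 | h4
  · exact h399 m (by omega) h4
  rcases Nat.even_or_odd m with h5 | h5
  · exact hev m (by omega) h5
  · exact hod m (by omega) h5

end Vale.Agent.P224.R2.H176
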